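import Vale.Agent.P179B.PB

/-! P179, normal subgroups: normal subgroups act trivially on simple modules.

Fix i. N acts on Fin (d i) → k through n ↦ (π (of n) i).mulVec. The set W of fixed vectors is invariant under all π (of g) i (N is normal), hence under all matrices (π is onto, the of g span),
so it is 0 or everything. It is not 0: induction on N, or the additive span over ZMod p of the orbit of a nonzero vector is a finite set of cardinality divisible by p on which N acts, 0 is fixed
(IsPGroup.exists_fixed_point_of_prime_dvd_card_of_fixed_point). Case d i = 0 is trivial (Subsingleton). Other way: the two sided span I of the (of n - 1) * of g is an ideal; every (of n - 1) is nilpotent.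
-/

open Finset
open scoped Classical

noncomputable section

namespace Vale.Agent.P179

set_option linter.unusedSectionVars false

variable {p : ℕ} [Fact p.Prime] {H : Type} [Group H] [Fintype H] {K : Type} [Group K] [Fintype K]
  {k : Type} [Field k] [CharP k p] {M : PM k}

theorem La_fix {d : ℕ} (ρ : H →* Matrix (Fin d) (Fin d) k) {N : Subgroup H} (hN : IsPGroup p N)
    {v : Fin d → k} (hv : v ≠ 0) : ∃ w : Fin d → k, w ≠ 0 ∧ ∀ n ∈ N, (ρ n).mulVec w = w := by
  have hp : p.Prime := Fact.out
  let S : AddSubgroup (Fin d → k) := AddSubgroup.closure (Set.range fun n : N => (ρ n).mulVec v)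
  have hS : ∀ (n : N) (s : Fin d → k), s ∈ S → (ρ n).mulVec s ∈ S := fun n s hs => by
    induction hs using AddSubgroup.closure_induction with
    | mem x hx =>
      obtain ⟨m, rfl⟩ := hx
      refine AddSubgroup.subset_closure ⟨n * m, ?_⟩
      simp only [Subgroup.coe_mul, map_mul, Matrix.mulVec_mulVec]
    | zero => rw [Matrix.mulVec_zero]; exact S.zero_mem
    | add x y _ _ hx hy => rw [Matrix.mulVec_add]; exact S.add_mem hx hy
    | neg x _ hx => rw [Matrix.mulVec_neg]; exact S.neg_mem hx
  have ht : ∀ s : S, p • s = 0 := fun s => Subtype.ext (by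
    funext j
    simp [nsmul_eq_mul])
  have : AddGroup.FG S := AddGroup.closure_finite_fg _
  have : Finite S := AddCommGroup.finite_of_fg_isAddTorsion S fun s =>
    isOfFinAddOrder_iff_nsmul_eq_zero.2 ⟨p, hp.pos, ht s⟩
  have hv' : v ∈ S := AddSubgroup.subset_closure ⟨1, by simp⟩
  have hc : p ∣ Nat.card S := by
    have h1 : addOrderOf (⟨v, hv'⟩ : S) = p :=
      addOrderOf_eq_prime (ht _) fun h => hv (congrArg Subtype.val h)
    exact h1 ▸ addOrderOf_dvd_natCard _
  let act : MulAction N S :=
    { smul := fun n s => ⟨(ρ n).mulVec s, hS n s s.2⟩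
      one_smul := fun s => Subtype.ext (by
        change (ρ (1 : N)).mulVec s = s
        simp)
      mul_smul := fun n m s => Subtype.ext (by
        change (ρ (n * m : N)).mulVec s = (ρ n).mulVec ((ρ m).mulVec s)
        simp only [Subgroup.coe_mul, map_mul, Matrix.mulVec_mulVec]) }
  obtain ⟨b, hb, h0⟩ := hN.exists_fixed_point_of_prime_dvd_card_of_fixed_point S hc (a := 0)
    fun n => Subtype.ext (Matrix.mulVec_zero (ρ n))
  exact ⟨b, fun h => h0 (Subtype.ext h.symm), fun n hn => congrArg Subtype.val (hb ⟨n, hn⟩)⟩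

theorem pi_one {r : ℕ} {d : Fin r → ℕ}
    (π : MonoidAlgebra k H →ₐ[k] ∀ i, Matrix (Fin (d i)) (Fin (d i)) k)
    (hs : Function.Surjective π) {N : Subgroup H} [N.Normal] (hN : IsPGroup p N) {n : H} (hn : n ∈ N) :
    π (MonoidAlgebra.of k H n) = 1 := by
  funext i
  let ρ : H →* Matrix (Fin (d i)) (Fin (d i)) k :=
    ((Pi.evalAlgHom k _ i).comp π).toMonoidHom.comp (MonoidAlgebra.of k H)
  have hρ : ∀ g, ρ g = π (MonoidAlgebra.of k H g) i := fun g => rfl
  refine Matrix.mulVec_injective (funext fun u => ?_)
  rw [Pi.one_apply, Matrix.one_mulVec, ← hρ]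
  by_cases hu : u = 0
  · rw [hu, Matrix.mulVec_zero]
  obtain ⟨w, hw, h⟩ := La_fix ρ hN hu
  have key : ∀ a : MonoidAlgebra k H, ∀ m ∈ N,
      (ρ m).mulVec ((π a i).mulVec w) = (π a i).mulVec w := fun a => by
    induction a using MonoidAlgebra.induction_on with
    | of g =>
      intro m hm
      have h1 := h _ (Subgroup.Normal.conj_mem' inferInstance m hm g)
      rw [← hρ]
      conv_rhs => rw [← h1]
      simp only [Matrix.mulVec_mulVec, ← map_mul]
      congr 2
      group
    | add a b ha hb =>
      intro m hm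
      rw [map_add, Pi.add_apply, Matrix.add_mulVec, Matrix.mulVec_add, ha m hm, hb m hm]
    | smul c a ha =>
      intro m hm
      rw [map_smul, Pi.smul_apply, Matrix.smul_mulVec, Matrix.mulVec_smul, ha m hm]
  obtain ⟨j, hj⟩ := Function.ne_iff.1 hw
  have hj' : w j ≠ 0 := hj
  obtain ⟨a, ha⟩ := hs (Pi.single i (Matrix.of fun x y => if y = j then u x * (w j)⁻¹ else 0))
  have e : (π a i).mulVec w = u := by
    rw [ha, Pi.single_eq_same]
    funext x
    simp [Matrix.mulVec, dotProduct, hj']
  have h2 := key a n hn
  rwa [e] at h2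

end Vale.Agent.P179
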