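import Vale.Agent.P179B.PB

/-! P179, normal subgroups: the semisimple quotient factors.

π1 = MonoidAlgebra.lift of the monoid hom K →* product of matrix rings induced by g ↦ π (of g) (choose preimages, MonoidHom.liftOfRightInverse on units or a direct definition c ↦ π (of (surjInv hf c))).
π1 ∘ mapDomainAlgHom k k f = π, mapDomain is onto, so ker π1 = Ideal.map of ker π, and (Ideal.map I) ^ n = Ideal.map (I ^ n) or an elementwise argument. ma (push f β) = mapDomain f (ma β).
-/

open Finset
open scoped Classical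

noncomputable section

namespace Vale.Agent.P179

set_option linter.unusedSectionVars false

variable {p : ℕ} [Fact p.Prime] {H : Type} [Group H] [Fintype H] {K : Type} [Group K] [Fintype K]
  {k : Type} [Field k] [CharP k p] {M : PM k}

theorem Lb_push (f : H →* K) (β : H → k) :
    MonoidAlgebra.mapDomainAlgHom k k f (ma β) = ma (push f β) := by
  change _ = ∑ c, MonoidAlgebra.single c (∑ g with f g = c, β g)
  rw [show ma β = ∑ g, MonoidAlgebra.single g (β g) from rfl, map_sum,
    ← sum_fiberwise univ (fun g => f g)]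
  refine sum_congr rfl fun c _ => ?_
  rw [← MonoidAlgebra.singleAddHom_apply, map_sum]
  refine sum_congr rfl fun g hg => ?_
  rw [← (mem_filter.1 hg).2]
  simp

theorem wedd_quot {r : ℕ} {d : Fin r → ℕ}
    (π : MonoidAlgebra k H →ₐ[k] ∀ i, Matrix (Fin (d i)) (Fin (d i)) k)
    (hs : Function.Surjective π) (hn : IsNilpotent (RingHom.ker π)) (f : H →* K)
    (hf : Function.Surjective f) (h1 : ∀ n ∈ f.ker, π (MonoidAlgebra.of k H n) = 1) :
    ∃ π1 : MonoidAlgebra k K →ₐ[k] ∀ i, Matrix (Fin (d i)) (Fin (d i)) k,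
      Function.Surjective π1 ∧ IsNilpotent (RingHom.ker π1) ∧
        ∀ β : H → k, π1 (ma (push f β)) = π (ma β) := by
  have h2 : ∀ a b : H, f a = f b → π (MonoidAlgebra.of k H a) = π (MonoidAlgebra.of k H b) := by
    intro a b h
    have h3 := h1 (b⁻¹ * a) (by rw [MonoidHom.mem_ker, map_mul, map_inv, h, inv_mul_cancel])
    rw [← mul_inv_cancel_left b a, map_mul, map_mul, h3, mul_one]
  let φ : K →* ∀ i, Matrix (Fin (d i)) (Fin (d i)) k :=
    { toFun := fun c => π (MonoidAlgebra.of k H (Function.surjInv hf c))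
      map_one' := by
        rw [h2 _ 1 (by rw [Function.surjInv_eq hf, map_one]), map_one, map_one]
      map_mul' := fun a b => by
        rw [← map_mul, ← map_mul]
        exact h2 _ _ (by simp only [map_mul, Function.surjInv_eq hf]) }
  have h4 : (MonoidAlgebra.lift k _ K φ).comp (MonoidAlgebra.mapDomainAlgHom k k f) = π := by
    refine MonoidAlgebra.algHom_ext (fun g => ?_) (Subsingleton.elim _ _)
    have h5 : φ (f g) = π (MonoidAlgebra.of k H g) := h2 _ _ (Function.surjInv_eq hf _)
    simpa using h5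
  have h5 : ∀ z, MonoidAlgebra.lift k _ K φ (MonoidAlgebra.mapDomainAlgHom k k f z) = π z :=
    fun z => AlgHom.congr_fun h4 z
  have h6 : Function.Surjective (MonoidAlgebra.mapDomainAlgHom k k f) := by
    intro z
    rw [← ma_self z]
    refine ⟨∑ c, MonoidAlgebra.single (Function.surjInv hf c) (z.coeff c), ?_⟩
    rw [map_sum]
    exact sum_congr rfl fun c _ => by simp [Function.surjInv_eq hf]
  refine ⟨MonoidAlgebra.lift k _ K φ, fun y => ?_, ?_, fun β => by rw [← Lb_push, h5]⟩
  · obtain ⟨z, rfl⟩ := hs y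
    exact ⟨_, h5 z⟩
  · obtain ⟨n, hn⟩ := hn
    have h7 : ∀ m : ℕ, ∀ x ∈ RingHom.ker (MonoidAlgebra.lift k _ K φ) ^ m,
        ∃ z ∈ RingHom.ker π ^ m, MonoidAlgebra.mapDomainAlgHom k k f z = x := by
      intro m
      induction m with
      | zero =>
        intro x _
        obtain ⟨z, hz⟩ := h6 x
        exact ⟨z, by rw [Submodule.pow_zero, Ideal.one_eq_top]; trivial, hz⟩
      | succ m ih =>
        intro x hx
        rw [Submodule.pow_succ] at hx ⊢
        refine Submodule.mul_induction_on hx (fun a ha b hb => ?_) fun a b ha hb => ?_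
        · obtain ⟨z, hz, rfl⟩ := ih a ha
          obtain ⟨w, rfl⟩ := h6 b
          exact ⟨z * w, Submodule.mul_mem_mul hz ((h5 w).symm.trans hb), map_mul _ _ _⟩
        · obtain ⟨z, hz, rfl⟩ := ha
          obtain ⟨w, hw, rfl⟩ := hb
          exact ⟨z + w, add_mem hz hw, map_add _ _ _⟩
    refine ⟨n, (Submodule.eq_bot_iff _).2 fun x hx => ?_⟩
    obtain ⟨z, hz, rfl⟩ := h7 n x hx
    rw [hn] at hz
    rw [(Submodule.mem_bot _).1 hz, map_zero]

end Vale.Agent.P179
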