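import Vale.Agent.P179C.La
import Vale.Agent.P179B.HD

/-! P179, normal subgroups: central idempotents centralize normal p-subgroups.

β1 g = if Cz g N then β g else 0 is a class function (N normal) and cv β1 β1 = β1 (brauer_cv; the centralizer of N is a subgroup). δ = β - β1 vanishes on the centralizer of N. With π from exists_wedd,
π (ma δ) = ∑ g, δ g • π (of g), the summand is invariant under conjugation by N (pi_one) and there is no fixed point with nonzero summand, so the sum is 0 in characteristic p (see HD_fix in P179B/HD.lean, or brauer_cv proof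
in P179B/PC.lean; apply it entrywise). So ma δ is nilpotent; ma β, ma β1 are central idempotents, so (ma δ) ^ 3 = ma δ and ma δ = 0 (see lift_idem in P179B/PG.lean), ma_coeff.
-/

open Finset
open scoped Classical

noncomputable section

namespace Vale.Agent.P179

set_option linter.unusedSectionVars false

variable {p : ℕ} [Fact p.Prime] {H : Type} [Group H] [Fintype H] {K : Type} [Group K] [Fintype K]
  {k : Type} [Field k] [CharP k p] {M : PM k}

theorem Lc_a {N : Subgroup H} [hN : N.Normal] {g : H} (y : H) (h : Cz g N) :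
    Cz (y * g * y⁻¹) N := fun q hq => by
  have := h _ (hN.conj_mem' q hq y)
  calc _ = y * (g * (y⁻¹ * q * y)) * y⁻¹ := by group
    _ = _ := by rw [this]; group

theorem Lc_b {N : Subgroup H} [N.Normal] (g y : H) : Cz (y * g * y⁻¹) N ↔ Cz g N := by
  refine ⟨fun h => ?_, Lc_a y⟩
  have := Lc_a y⁻¹ h
  rwa [show y⁻¹ * (y * g * y⁻¹) * y⁻¹⁻¹ = g by group] at this

theorem Lc_c {N : Subgroup H} {x g : H} (hg : Cz g N) : Cz (x * g⁻¹) N ↔ Cz x N := by
  refine forall₂_congr fun q hq => ?_
  have e : g⁻¹ * q = q * g⁻¹ := by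
    rw [inv_mul_eq_iff_eq_mul, ← mul_assoc, hg q hq, mul_inv_cancel_right]
  rw [mul_assoc, e, ← mul_assoc, ← mul_assoc, mul_left_inj]

theorem supp_cz [IsAlgClosed k] {N : Subgroup H} [N.Normal] (hN : IsPGroup p N) {β : H → k}
    (h : Cl β) (hi : cv β β = β) (g : H) (hg : β g ≠ 0) : Cz g N := by
  obtain ⟨β1, hβ⟩ : ∃ β1 : H → k, ∀ g, β1 g = if Cz g N then β g else 0 := ⟨_, fun _ => rfl⟩
  have c1 : Cl β1 := fun g y => by
    rw [hβ, hβ, h g y]
    exact if_congr (Lc_b g y) rfl rfl
  have i1 : cv β1 β1 = β1 := by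
    funext x
    by_cases hx : Cz x N
    · rw [hβ x, if_pos hx]
      conv_rhs => rw [← hi, brauer_cv hN h h hx, sum_filter]
      refine sum_congr rfl fun g _ => ?_
      rw [hβ g]
      split_ifs with hg
      · rw [hβ, if_pos ((Lc_c hg).2 hx)]
      · exact mul_zero _
    · rw [hβ x, if_neg hx]
      refine sum_eq_zero fun g _ => ?_
      rw [hβ g]
      split_ifs with hg
      · rw [hβ, if_neg (mt (Lc_c hg).1 hx), zero_mul]
      · exact mul_zero _
  obtain ⟨r, d, π, -, hs, m, hm⟩ := exists_wedd k H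
  have e1 : ∀ η : H → k, π (ma η) = ∑ g, η g • π (MonoidAlgebra.of k H g) := fun η => by
    rw [ma, map_sum]
    refine sum_congr rfl fun g _ => ?_
    rw [← map_smul, MonoidAlgebra.of_apply, MonoidAlgebra.smul_single, smul_eq_mul, mul_one]
  have h1 : ma β1 - ma β ∈ RingHom.ker π := by
    rw [RingHom.mem_ker, map_sub, e1, e1, ← sum_sub_distrib]
    funext i
    ext a b
    simp only [Finset.sum_apply, Matrix.sum_apply, Pi.sub_apply, Matrix.sub_apply, Pi.smul_apply,
      Matrix.smul_apply, smul_eq_mul, Pi.zero_apply, Matrix.zero_apply]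
    refine HD_fix hN ((MulAut.toPerm H).comp (MulAut.conj.comp N.subtype)) _ (fun q x => ?_)
      fun x hx => ?_
    · have e : π (MonoidAlgebra.of k H ((q : H) * x * (q : H)⁻¹)) = π (MonoidAlgebra.of k H x) := by
        rw [map_mul, map_mul, map_mul, map_mul, pi_one π hs hN q.2, pi_one π hs hN (N.inv_mem q.2),
          one_mul, mul_one]
      change β1 ((q : H) * x * (q : H)⁻¹) * π (MonoidAlgebra.of k H ((q : H) * x * (q : H)⁻¹)) i a b -
        β ((q : H) * x * (q : H)⁻¹) * π (MonoidAlgebra.of k H ((q : H) * x * (q : H)⁻¹)) i a b = _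
      rw [e, c1, h]
    · have e : Cz x N := fun q hq => by
        have e1 : q * x * q⁻¹ = x := hx ⟨q, hq⟩
        exact (mul_inv_eq_iff_eq_mul.1 e1).symm
      rw [hβ, if_pos e, sub_self]
  have h2 := Ideal.pow_mem_pow h1 m
  rw [hm] at h2
  have h6 : ma β1 = ma β :=
    eq_of_isNilpotent_sub_of_isIdempotentElem_of_commute
      ((ma_cv _ _).symm.trans (congrArg ma i1)) ((ma_cv _ _).symm.trans (congrArg ma hi)) ⟨m, h2⟩
      (Subalgebra.mem_center_iff.1 (ma_center.2 h) _)
  by_contra hc
  apply hg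
  rw [← ma_coeff β g, ← h6, ma_coeff, hβ, if_neg hc]

end Vale.Agent.P179
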