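import Vale.Agent.P179B.PB

/-! P179, normal subgroups: defect zero and normal p-subgroups.

χ = character of ρ irreducible, pp p H divides the degree, so χ vanishes on nontrivial p-elements (vanish). T = ∑ r : R, ρ r commutes with ρ (R normal), CC_schur gives c with trace (ρ x * T) = c * χ x.
x = 1: ∑ r, χ r = χ 1, so c = 1. For x ∈ R, x ≠ 1: trace (ρ x * T) = ∑ r, χ (x * r) = χ 1 ≠ 0 but χ x = 0.
-/

open Finset
open scoped Classical

noncomputable section

namespace Vale.Agent.P179

set_option linter.unusedSectionVars false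

variable {p : ℕ} [Fact p.Prime] {H : Type} [Group H] [Fintype H] {K : Type} [Group K] [Fintype K]
  {k : Type} [Field k] [CharP k p] {M : PM k}

theorem dz_bot {χ : H → ℂ} (hχ : IsIrr χ) (hd : DefectZero p χ) {R : Subgroup H} [R.Normal]
    (hR : IsPGroup p R) : R = ⊥ := by
  obtain ⟨d, h1, h2⟩ := hd
  have hv := (vanish (p := p) hχ h1 (by rw [pp, ← h2]; exact Nat.ordProj_dvd d p)).2
  obtain ⟨n, ρ, hi, rfl⟩ := hχ
  have hP : ∀ r ∈ R, IsP p r := fun r hr => by
    obtain ⟨j, hj⟩ := hR ⟨r, hr⟩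
    exact ⟨j, congrArg Subtype.val hj⟩
  obtain ⟨c, hc⟩ := CC_schur ρ (∑ r : R, ρ r) fun g => by
    rw [sum_mul, mul_sum]
    refine (Fintype.sum_equiv (MulAut.conjNormal g).toEquiv _ _ fun r => ?_).symm
    rw [← map_mul, ← map_mul]
    congr 1
    change g * r = g * r * g⁻¹ * g
    group
  have key : ∀ x : R, c * ρ.character x = ρ.character 1 := by
    intro x
    rw [← hc, mul_sum, map_sum, sum_eq_single x⁻¹]
    · rw [← map_mul, Subgroup.coe_inv, mul_inv_cancel]
      rfl
    · intro r _ hr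
      rw [← map_mul]
      refine hv _ (hP _ (R.mul_mem x.2 r.2)) fun e => hr ?_
      exact (Subtype.ext (eq_inv_of_mul_eq_one_right e) : r = x⁻¹)
    · exact fun a => absurd (mem_univ _) a
  obtain ⟨v, hv0⟩ := BB_nontriv hi
  refine (Subgroup.eq_bot_iff_forall R).2 fun x hx => by_contra fun hx1 => ?_
  have e := key ⟨x, hx⟩
  rw [hv x (hP x hx) hx1, mul_zero, Representation.char_one] at e
  have : Nontrivial (Fin n → ℂ) := ⟨v, 0, hv0⟩
  exact Module.finrank_pos.ne (by exact_mod_cast e)

end Vale.Agent.P179
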