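import Vale.Agent.P179C.Ld

/-! P179, normal subgroups: weights contain normal p-subgroups.

The image R in NQ Q of N.subgroupOf (normalizer Q) is a normal p-subgroup, so R = ⊥ by dz_bot: N ⊓ normalizer Q ≤ Q. P = N ⊔ Q is a p-group (IsPGroup.to_sup_of_normal_left), nilpotent, so it has the
normalizer condition (normalizerCondition_of_isNilpotent): an element n * q of P normalizing Q has n in the normalizer, so it lies in Q; hence Q.subgroupOf P = ⊤.
Other way: Q acts by conjugation on the cosets of N ⊓ Q in N.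
-/

open Finset
open scoped Classical

noncomputable section

namespace Vale.Agent.P179

set_option linter.unusedSectionVars false

variable {p : ℕ} [Fact p.Prime] {H : Type} [Group H] [Fintype H] {K : Type} [Group K] [Fintype K]
  {k : Type} [Field k] [CharP k p] {M : PM k}

theorem dz_le {N : Subgroup H} [N.Normal] (hN : IsPGroup p N) {Q : Subgroup H} (hQ : IsPGroup p Q)
    {φ : NQ Q → ℂ} (hφ : IsIrr φ) (hd : DefectZero p φ) : N ≤ Q := by
  let _ : Fintype (NQ Q) := Fintype.ofFinite _
  have h1 : ∀ n ∈ N, n ∈ Subgroup.normalizer (Q : Set H) → n ∈ Q := by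
    intro n hn hn'
    have : ((N.subgroupOf (Subgroup.normalizer (Q : Set H))).map
      (QuotientGroup.mk' (Q.subgroupOf _))).Normal :=
      Subgroup.Normal.map inferInstance _ (QuotientGroup.mk'_surjective _)
    have e := dz_bot hφ hd (IsPGroup.map (hN.comap_subtype (K := Subgroup.normalizer (Q : Set H)))
      (QuotientGroup.mk' (Q.subgroupOf _)))
    exact (QuotientGroup.eq_one_iff (⟨n, hn'⟩ : Subgroup.normalizer (Q : Set H))).1
      ((Subgroup.eq_bot_iff_forall _).1 e _ ⟨⟨n, hn'⟩, hn, rfl⟩)
  have hP : IsPGroup p (N ⊔ Q : Subgroup H) := hN.to_sup_of_normal_left hQ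
  have := hP.isNilpotent
  have h2 : Q.subgroupOf (N ⊔ Q) = ⊤ := by
    refine normalizerCondition_iff_only_full_group_self_normalizing.1
      normalizerCondition_of_isNilpotent _ (le_antisymm ?_ Subgroup.le_normalizer)
    rw [← Subgroup.subgroupOf_normalizer_eq le_sup_right]
    rintro ⟨x, hx⟩ hx'
    obtain ⟨n, hn, q, hq, rfl⟩ := Subgroup.mem_sup_of_normal_left.1 hx
    exact Q.mul_mem (h1 n hn ((Subgroup.mul_mem_cancel_right _ (Subgroup.le_normalizer hq)).1 hx')) hq
  exact le_sup_left.trans (Subgroup.subgroupOf_eq_top.1 h2)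

end Vale.Agent.P179
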