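import Vale.Agent.P179B.PB

/-! P179, normal subgroups: normalizers in a quotient.

Q = comap f (Q.map f) since ker f ≤ Q. f restricts to a surjection F from the normalizer of Q to the normalizer of Q.map f with kernel (ker f).subgroupOf, which gives card_norm.
The composite with QuotientGroup.mk' is onto with kernel Q.subgroupOf: QuotientGroup.quotientKerEquivOfSurjective and quotientMulEquivOfEq, or MulEquiv.ofBijective (QuotientGroup.map ..).
-/

open Finset
open scoped Classical

noncomputable section

namespace Vale.Agent.P179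

set_option linter.unusedSectionVars false

variable {p : ℕ} [Fact p.Prime] {H : Type} [Group H] [Fintype H] {K : Type} [Group K] [Fintype K]
  {k : Type} [Field k] [CharP k p] {M : PM k}

theorem Lf_mem (f : H →* K) {Q : Subgroup H} (h : f.ker ≤ Q) (x : H) : f x ∈ Q.map f ↔ x ∈ Q := by
  rw [← Subgroup.mem_comap, Subgroup.comap_map_eq_self h]

theorem mem_norm (f : H →* K) (hf : Function.Surjective f) {Q : Subgroup H} (h : f.ker ≤ Q) (g : H) :
    f g ∈ Subgroup.normalizer (Q.map f : Set K) ↔ g ∈ Subgroup.normalizer (Q : Set H) := by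
  rw [Subgroup.mem_normalizer_iff, Subgroup.mem_normalizer_iff, hf.forall]
  refine forall_congr' fun x => ?_
  rw [← map_inv, ← map_mul, ← map_mul, Lf_mem f h, Lf_mem f h]

/-- The restriction to the normalizers. -/
def Lf_F (f : H →* K) (hf : Function.Surjective f) {Q : Subgroup H} (h : f.ker ≤ Q) :
    Subgroup.normalizer (Q : Set H) →* Subgroup.normalizer (Q.map f : Set K) :=
  (f.comp (Subgroup.normalizer (Q : Set H)).subtype).codRestrict _ fun n => (mem_norm f hf h n).2 n.2

theorem Lf_surj (f : H →* K) (hf : Function.Surjective f) {Q : Subgroup H} (h : f.ker ≤ Q) :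
    Function.Surjective (Lf_F f hf h) := by
  intro m
  obtain ⟨g, hg⟩ := hf m
  exact ⟨⟨g, (mem_norm f hf h g).1 (hg ▸ m.2)⟩, Subtype.ext hg⟩

theorem card_norm (f : H →* K) (hf : Function.Surjective f) {Q : Subgroup H} (h : f.ker ≤ Q) :
    Nat.card (Subgroup.normalizer (Q : Set H)) =
      Nat.card f.ker * Nat.card (Subgroup.normalizer (Q.map f : Set K)) := by
  have e : (Lf_F f hf h).ker = f.ker.subgroupOf (Subgroup.normalizer (Q : Set H)) := by
    ext n
    rw [MonoidHom.mem_ker, Subgroup.mem_subgroupOf, MonoidHom.mem_ker]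
    exact Subtype.ext_iff
  rw [Subgroup.card_eq_card_quotient_mul_card_subgroup (Lf_F f hf h).ker,
    Nat.card_congr (QuotientGroup.quotientKerEquivOfSurjective _ (Lf_surj f hf h)).toEquiv, e,
    Nat.card_congr (Subgroup.subgroupOfEquivOfLe (h.trans Subgroup.le_normalizer)).toEquiv,
    mul_comm]

theorem nq_equiv (f : H →* K) (hf : Function.Surjective f) {Q : Subgroup H} (h : f.ker ≤ Q) :
    ∃ e : NQ Q ≃* NQ (Q.map f), ∀ (n : Subgroup.normalizer (Q : Set H))
      (m : Subgroup.normalizer (Q.map f : Set K)), f n = m →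
        e (QuotientGroup.mk n) = QuotientGroup.mk m := by
  let φ : NQ Q →* NQ (Q.map f) :=
    QuotientGroup.map _ _ (Lf_F f hf h) fun n hn => (Lf_mem f h n).2 hn
  have h1 : Function.Injective φ := by
    refine (injective_iff_map_eq_one φ).2 fun a ha => ?_
    obtain ⟨n, rfl⟩ := QuotientGroup.mk_surjective a
    have h2 : (QuotientGroup.mk (Lf_F f hf h n) : NQ (Q.map f)) = 1 := ha
    rw [QuotientGroup.eq_one_iff] at h2 ⊢
    exact (Lf_mem f h n).1 h2
  have h2 : Function.Surjective φ := by
    intro b
    obtain ⟨m, rfl⟩ := QuotientGroup.mk_surjective b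
    obtain ⟨n, rfl⟩ := Lf_surj f hf h m
    exact ⟨QuotientGroup.mk n, rfl⟩
  refine ⟨MulEquiv.ofBijective φ ⟨h1, h2⟩, fun n m e => ?_⟩
  obtain rfl : Lf_F f hf h n = m := Subtype.ext e
  rfl

end Vale.Agent.P179
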