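import Vale.Agent.P179C.Lf

/-! P179, normal subgroups: truncation commutes with the quotient map.

Both sides at c are ∑ n in the normalizer of Q with mk n = c, if Cz n Q then β n else 0. Left: ∑ m with mk m = e c, if Cz m (Q.map f) then ∑ g with f g = m, β g. Every such g lies in the normalizer (mem_norm),
mk m = e c ↔ mk g = c (he, injectivity), and when β g ≠ 0, Cz (f g) (Q.map f) ↔ Cz g Q (cz_lift). Write everything as sums over g : H of ite terms (sum_filter, sum_comm, sum_subtype).
-/

open Finset
open scoped Classical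

noncomputable section

namespace Vale.Agent.P179

set_option linter.unusedSectionVars false

variable {p : ℕ} [Fact p.Prime] {H : Type} [Group H] [Fintype H] {K : Type} [Group K] [Fintype K]
  {k : Type} [Field k] [CharP k p] {M : PM k}

theorem bar_push (f : H →* K) (hf : Function.Surjective f) (hk : IsPGroup p f.ker) {Q : Subgroup H}
    (h : f.ker ≤ Q) (e : NQ Q ≃* NQ (Q.map f)) (he : ∀ (n : Subgroup.normalizer (Q : Set H))
      (m : Subgroup.normalizer (Q.map f : Set K)), f n = m →
        e (QuotientGroup.mk n) = QuotientGroup.mk m) {β : H → k}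
    (hβ : ∀ g, β g ≠ 0 → IsReg p g ∧ Cz g f.ker) : bar (Q.map f) (push f β) ∘ e = bar Q β := by
  funext c
  let F : Subgroup.normalizer (Q : Set H) → Subgroup.normalizer (Q.map f : Set K) :=
    fun n => ⟨f n, (mem_norm f hf h n).2 n.2⟩
  have a : ∀ m : Subgroup.normalizer (Q.map f : Set K), resQ (Q.map f) (push f β) m =
      ∑ n with F n = m, resQ Q β n := fun m => by
    have b : push f β m = ∑ n with F n = m, β n := by
      refine (sum_bij (fun (n : Subgroup.normalizer (Q : Set H)) _ => (n : H)) (fun n hn => ?_)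
        (fun _ _ _ _ => Subtype.ext) (fun g hg => ?_) fun _ _ => rfl).symm
      · exact mem_filter.2 ⟨mem_univ _, congrArg Subtype.val (mem_filter.1 hn).2⟩
      · have e := (mem_filter.1 hg).2
        exact ⟨⟨g, (mem_norm f hf h g).1 (e ▸ m.2)⟩, mem_filter.2 ⟨mem_univ _, Subtype.ext e⟩, rfl⟩
    rw [resQ, b, ite_sum_zero]
    refine sum_congr rfl fun n hn => ?_
    obtain rfl := (mem_filter.1 hn).2
    by_cases h0 : β n = 0
    · simp [resQ, h0]
    refine if_congr ⟨fun k => ?_, fun k => ?_⟩ rfl rfl
    · exact cz_lift f hk (hβ n h0).1 (hβ n h0).2 k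
    · rintro _ ⟨q, hq, rfl⟩
      change f n * f q = f q * f n
      rw [← map_mul, k q hq, map_mul]
  simp only [Function.comp_apply, bar, push, a]
  rw [sum_fiberwise_eq_sum_filter]
  refine sum_congr (Finset.ext fun n => ?_) fun _ _ => rfl
  refine (@mem_filter _ _ (_) _ _).trans (.trans (and_congr_right fun _ =>
    (@mem_filter _ _ (_) _ _).trans ?_) (@mem_filter _ _ (_) _ _).symm)
  rw [and_iff_right (mem_univ _)]
  exact (Eq.congr_left (he n (F n) rfl).symm).trans e.injective.eq_iff

end Vale.Agent.P179
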