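import Vale.Agent.P179B.PB

/-! P179, normal subgroups: transport along an isomorphism.

φ ↦ φ ∘ e is a bijection that keeps IsIrr and DefectZero (see P179/KC.lean, KD.lean). lam_equiv: reindex the classes by ConjClasses.map e (Fintype.sum_bijective or an Equiv), γ is a class function so the choice
of representatives does not matter; om (φ ∘ e) (indicator of c) = om φ (indicator of the image) by Equiv.sum_comp.
-/

open Finset
open scoped Classical

noncomputable section

namespace Vale.Agent.P179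

set_option linter.unusedSectionVars false

variable {p : ℕ} [Fact p.Prime] {H : Type} [Group H] [Fintype H] {K : Type} [Group K] [Fintype K]
  {k : Type} [Field k] [CharP k p] {M : PM k}

theorem Lh_key (e : H ≃* K) (g : H) (c : ConjClasses H) :
    ConjClasses.mk (e g) = ConjClasses.map e.toMonoidHom c ↔ ConjClasses.mk g = c := by
  obtain ⟨a, rfl⟩ := ConjClasses.mk_surjective c
  change ConjClasses.mk (e g) = ConjClasses.mk (e a) ↔ _
  rw [ConjClasses.mk_eq_mk_iff_isConj, ConjClasses.mk_eq_mk_iff_isConj]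
  refine ⟨fun h => ?_, fun h => e.toMonoidHom.map_isConj h⟩
  have h1 : IsConj (e.symm (e g)) (e.symm (e a)) := e.symm.toMonoidHom.map_isConj h
  rwa [e.symm_apply_apply, e.symm_apply_apply] at h1

theorem Lh_bij (e : H ≃* K) : Function.Bijective (ConjClasses.map e.toMonoidHom) := by
  constructor
  · intro c d h
    obtain ⟨a, rfl⟩ := ConjClasses.mk_surjective c
    exact (Lh_key e a d).1 h
  · intro d
    obtain ⟨b, rfl⟩ := ConjClasses.mk_surjective d
    refine ⟨ConjClasses.mk (e.symm b), ?_⟩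
    change ConjClasses.mk (e (e.symm b)) = _
    rw [e.apply_symm_apply]

theorem lam_equiv (e : H ≃* K) (φ : K → ℂ) {γ : K → k} (h : Cl γ) :
    lam M (φ ∘ e) (γ ∘ e) = lam M φ γ := by
  refine Fintype.sum_bijective _ (Lh_bij e) _ _ fun c => ?_
  have h1 : ConjClasses.mk (e (Quotient.out c)) =
      ConjClasses.mk (Quotient.out (ConjClasses.map e.toMonoidHom c)) :=
    ((Lh_key e _ c).2 (Quotient.out_eq c)).trans (Quotient.out_eq _).symm
  obtain ⟨y, hy⟩ := isConj_iff.1 (ConjClasses.mk_eq_mk_iff_isConj.1 h1)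
  have h2 : (γ ∘ e) (Quotient.out c) = γ (Quotient.out (ConjClasses.map e.toMonoidHom c)) := by
    rw [← hy, h]
    rfl
  have h3 : om (φ ∘ e) (fun g => if ConjClasses.mk g = c then 1 else 0) =
      om φ fun g => if ConjClasses.mk g = ConjClasses.map e.toMonoidHom c then 1 else 0 := by
    unfold om
    rw [Function.comp_apply, map_one]
    congr 1
    refine Fintype.sum_equiv e.toEquiv _ _ fun g => ?_
    exact congrArg (· * φ (e g)) (if_congr (Lh_key e g c).symm rfl rfl)
  rw [h2, h3]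

theorem cnt_equiv (e : H ≃* K) {γ : K → k} (h : Cl γ) :
    Nat.card {φ : {φ : H → ℂ // IsIrr φ ∧ DefectZero p φ} // lam M φ.1 (γ ∘ e) = 1} =
      Nat.card {φ : {φ : K → ℂ // IsIrr φ ∧ DefectZero p φ} // lam M φ.1 γ = 1} := by
  have e1 : ∀ ψ : H → ℂ, (ψ ∘ e.symm) ∘ e = ψ := fun ψ => funext fun x => by simp
  have e2 : ∀ φ : K → ℂ, (φ ∘ e) ∘ e.symm = φ := fun φ => funext fun x => by simp
  have e3 : ∀ ψ : H → ℂ, lam M ψ (γ ∘ e) = 1 → lam M (ψ ∘ e.symm) γ = 1 := by
    intro ψ hψ
    rw [← lam_equiv e _ h, e1]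
    exact hψ
  exact (Nat.card_congr
    { toFun := fun φ => ⟨⟨φ.1.1 ∘ e, KC_irr e φ.1.2.1, KC_dz e φ.1.2.2⟩,
        (lam_equiv e _ h).trans φ.2⟩
      invFun := fun ψ => ⟨⟨ψ.1.1 ∘ e.symm, KC_irr e.symm ψ.1.2.1, KC_dz e.symm ψ.1.2.2⟩,
        e3 _ ψ.2⟩
      left_inv := fun φ => Subtype.ext (Subtype.ext (e2 φ.1.1))
      right_inv := fun ψ => Subtype.ext (Subtype.ext (e1 ψ.1.1)) }).symm

end Vale.Agent.P179
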