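import Vale.Agent.P179C.Le
import Vale.Agent.P179C.Lg
import Vale.Agent.P179C.Lh

/-! P179, normal subgroups: the weighted count of weights in a quotient.

Terms with ¬ ker f ≤ Q vanish (dz_le: the type is empty). Q ↦ Q.map f is a bijection from the p-subgroups above ker f to the p-subgroups of K with inverse comap (IsPGroup.comap_of_ker_isPGroup,
Subgroup.comap_map_eq_self, map_comap_eq_self_of_surjective). Termwise: card_norm, nq_equiv, bar_push, cnt_equiv; bar of a class function is a class function (Cl.push, Cl.resQ).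
-/

open Finset
open scoped Classical

noncomputable section

namespace Vale.Agent.P179

set_option linter.unusedSectionVars false

variable {p : ℕ} [Fact p.Prime] {H : Type} [Group H] [Fintype H] {K : Type} [Group K] [Fintype K]
  {k : Type} [Field k] [CharP k p] {M : PM k}

theorem cnt_sum (f : H →* K) (hf : Function.Surjective f) (hk : IsPGroup p f.ker) {β : H → k}
    (h : Cl β) (hβ : ∀ g, β g ≠ 0 → IsReg p g ∧ Cz g f.ker) :
    ∑ Q : {Q : Subgroup H // IsPGroup p Q}, Nat.card (Subgroup.normalizer (Q.1 : Set H)) *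
      Nat.card {φ : {φ : NQ Q.1 → ℂ // IsIrr φ ∧ DefectZero p φ} // lam M φ.1 (bar Q.1 β) = 1} =
    Nat.card f.ker * ∑ Q : {Q : Subgroup K // IsPGroup p Q},
      Nat.card (Subgroup.normalizer (Q.1 : Set K)) * Nat.card {φ : {φ : NQ Q.1 → ℂ //
        IsIrr φ ∧ DefectZero p φ} // lam M φ.1 (bar Q.1 (push f β)) = 1} := by
  rw [mul_sum, ← sum_filter_of_ne (p := fun Q : {Q : Subgroup H // IsPGroup p Q} => f.ker ≤ Q.1)
    fun Q _ hQ => ?_]
  · refine sum_nbij' (fun Q => ⟨Q.1.map f, Q.2.map f⟩)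
      (fun R => ⟨R.1.comap f, R.2.comap_of_ker_isPGroup f hk⟩) (fun _ _ => mem_univ _)
      (fun R _ => mem_filter.2 ⟨mem_univ _, Subgroup.ker_le_comap f R.1⟩)
      (fun Q hQ => Subtype.ext (Subgroup.comap_map_eq_self (mem_filter.1 hQ).2))
      (fun R _ => Subtype.ext (Subgroup.map_comap_eq_self_of_surjective hf R.1)) fun Q hQ => ?_
    have hQ' : f.ker ≤ Q.1 := (mem_filter.1 hQ).2
    obtain ⟨e, he⟩ := nq_equiv f hf hQ'
    have hc : Cl (bar (Q.1.map f) (push f β)) :=
      Cl.push (QuotientGroup.mk'_surjective _) ((h.push hf).resQ _)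
    rw [card_norm f hf hQ', mul_assoc, ← bar_push f hf hk hQ' e he hβ, cnt_equiv e hc]
  · obtain ⟨φ, -⟩ := (Nat.card_ne_zero.1 (right_ne_zero_of_mul hQ)).1
    exact dz_le hk Q.2 φ.2.1 φ.2.2

end Vale.Agent.P179
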