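import Vale.Agent.P179B.Main
import Vale.Agent.P179C.Lb
import Vale.Agent.P179C.Lc
import Vale.Agent.P179C.Li

/-! P179, normal subgroups: the congruence. -/

open Finset
open scoped Classical

noncomputable section

namespace Vale.Agent.P179

set_option linter.unusedSectionVars false

variable {p : ℕ} [Fact p.Prime] {H : Type} [Group H] [Fintype H] {K : Type} [Group K] [Fintype K]
  {k : Type} [Field k] [CharP k p] {M : PM k}

theorem gen_count (hab : Ab p H) {β : H → k} (c1 : Cl β) (c2 : cv β β = β) {W : ℕ}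
    (hW : Nat.card H * W = ∑ Q : {Q : Subgroup H // IsPGroup p Q},
      Nat.card (Subgroup.normalizer (Q.1 : Set H)) * Nat.card {φ : {φ : NQ Q.1 → ℂ //
        IsIrr φ ∧ DefectZero p φ} // lam M φ.1 (bar Q.1 β) = 1}) : ts p β = W := by
  obtain ⟨ε, h, e⟩ := exists_good (M := M) (p := p) c1 c2
  have a1 : M.ψ (ts p ε) = ts p β := by
    rw [← e]
    simp only [ts, map_sum, Function.comp_apply]
  have a2 : Sm M (pp p H) (Nat.card H * (ts p ε - W)) := by
    rw [mul_sub, ← ts_eq h.cl, ← sum_WS hab ε h.reg, ← Nat.cast_mul, hW, Nat.cast_sum,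
      sum_subtype (p := fun Q : Subgroup H => IsPGroup p Q) _ (fun Q => by simp),
      ← sum_sub_distrib]
    refine Sm.sum fun Q _ => ?_
    obtain ⟨z, z1, z2⟩ := WS_local (hab.nq Q.2) (h.bar Q.2)
    have e1 : Nat.card (Subgroup.normalizer (Q.1 : Set H)) = Nat.card Q.1 * Nat.card (NQ Q.1) := by
      rw [Subgroup.card_eq_card_quotient_mul_card_subgroup
        (Q.1.subgroupOf (Subgroup.normalizer (Q.1 : Set H))), Nat.card_congr
        (Subgroup.subgroupOfEquivOfLe Subgroup.le_normalizer).toEquiv, mul_comm]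
    have b1 := z2.nat_mul (Nat.card Q.1)
    rw [card_mul_pp hab Q.2] at b1
    obtain ⟨n, hn⟩ : ∃ n, n = Nat.card {φ : {φ : NQ Q.1 → ℂ // IsIrr φ ∧ DefectZero p φ} //
      lam M φ.1 (bar Q.1 β) = 1} := ⟨_, rfl⟩
    have b2 : M.ψ (z - n) = 0 := by
      have e2 : M.ψ ∘ bar Q.1 ε = bar Q.1 β := by
        rw [← e]
        funext c
        simp only [bar, push, resQ, Function.comp_apply, map_sum, apply_ite M.ψ, map_zero]
      have e3 := (h.bar Q.2).idm
      have e4 : Cl (M.ψ ∘ bar Q.1 ε) := fun g y => congrArg M.ψ ((h.bar Q.2).cl g y)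
      rw [e2] at e3 e4
      have : Fintype {φ : NQ Q.1 → ℂ // IsIrr φ ∧ DefectZero p φ} :=
        (irr_finite.subset fun φ (hφ : IsIrr φ ∧ DefectZero p φ) => hφ.1).fintype
      rw [map_sub, map_natCast, z1, e2, sub_eq_zero, hn, Nat.card_eq_fintype_card,
        Fintype.card_subtype, card_filter, Nat.cast_sum,
        sum_subtype (p := fun φ : NQ Q.1 → ℂ => IsIrr φ ∧ DefectZero p φ) _ (fun φ => by simp)]
      refine sum_congr rfl fun φ _ => ?_
      have e5 := lam_cv (M := M) φ.2.1 e4 e4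
      rw [e3] at e5
      split_ifs with h5
      · rw [h5, Nat.cast_one]
      · rw [Nat.cast_zero]
        by_contra h6
        exact h5 (mul_left_cancel₀ h6 (by rw [← e5, mul_one]))
    have b3 : Sm M (pp p H) (Nat.card (Subgroup.normalizer (Q.1 : Set H)) * (z - n)) :=
      Sm.of_dvd ⟨_, b2, rfl⟩ (by
        rw [e1, ← card_mul_pp hab Q.2]
        exact mul_dvd_mul_left _ pp_dvd)
    convert b1.add b3 using 1
    rw [← hn, e1]
    push_cast
    ring
  have a3 := a2.cancel
  rwa [map_sub, a1, map_natCast, sub_eq_zero] at a3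

theorem quot_congr [IsAlgClosed k] (f : H →* K) (hf : Function.Surjective f)
    (hk : IsPGroup p f.ker) (hab : Ab p K) (ψ0 : integralClosure ℤ ℂ →+* k)
    {B : MonoidAlgebra k H} (hB : IsBlock B) : numSimpleIn B ≡ numWeightsIn p ψ0 B [MOD p] := by
  obtain ⟨M, hM⟩ := exists_PM ψ0
  have c1 : Cl fun g => B.coeff g := ma_center.1 (by rw [ma_self]; exact hB.1)
  have c2 : cv (fun g => B.coeff g) (fun g => B.coeff g) = fun g => B.coeff g := funext fun g => by
    rw [← ma_coeff (cv _ _), ma_cv, ma_self, hB.2.1]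
  obtain ⟨ε, h, e⟩ := exists_good (M := M) (p := p) c1 c2
  have c3 : ∀ g, B.coeff g ≠ 0 → IsReg p g ∧ Cz g f.ker := fun g hg =>
    ⟨by_contra fun h0 => hg (by
      rw [← congrFun e g, Function.comp_apply, h.reg g h0, map_zero]), supp_cz hk c1 c2 g hg⟩
  obtain ⟨r, d, π, h1, h2, h3⟩ := exists_wedd k H
  obtain ⟨l, hl⟩ := central_scalar π h1 h2 h3 hB.1
  obtain ⟨π1, g1, g2, g3⟩ := wedd_quot π h2 h3 f hf fun n hn => pi_one π h2 hk hn
  have a1 : ts p (push f fun g => B.coeff g) = numSimpleIn B := by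
    rw [num_in π h1 h2 h3 hB.2.1 l hl, ts_trace π1 h1 g1 g2 _ l (by rw [g3, ma_self]; exact hl)]
  have a2 := gen_count (M := M) hab (c1.push hf) (by rw [← push_cv, c2])
    (W := numWeightsIn p ψ0 B) (by
      refine Nat.eq_of_mul_eq_mul_left (Nat.card_pos (α := f.ker)) ?_
      rw [← cnt_sum f hf hk c1 c3, ← mul_assoc, ← Nat.card_congr
        (QuotientGroup.quotientKerEquivOfSurjective f hf).toEquiv, mul_comm (Nat.card f.ker),
        ← Subgroup.card_eq_card_quotient_mul_card_subgroup, weight_count_in]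
      refine sum_congr rfl fun Q _ => ?_
      congr 1
      refine Nat.card_congr (Equiv.subtypeEquivRight fun φ => ?_)
      rw [in_iff hM hB ⟨Q.1, Q.2, φ.1, φ.2.1, φ.2.2⟩]
      split_ifs with h5 <;> simp [h5])
  rw [a1] at a2
  exact (CharP.natCast_eq_natCast k p).1 a2

end Vale.Agent.P179
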